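import Vale.Agent.P030.H336.PatFlat

/-!
# P030, route N: the ten frames of the frozen table, patterns by kernel computation (helper336)

`fr1` = the ten cells, `Bt fr1 k` = their constants.  `prI`, `prR` = the required pairs b, c
(meaning W c ≤ W b) of an interior wall and of a real interval; `prI_mem`, `prR_mem` connect
them with the patterns of `hI_flat`, `hR_flat`; `prI_adj`, `prR_adj` = the literal lists.
-/

open Matrix
open scoped ComplexConjugate

namespace Vale.Agent.P030.H336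

open Vale.Agent.P030.H124 Vale.Agent.P030.H265 Vale.Agent.P030.AR

/-- the pattern is contained in the diagonal and the list of pairs -/
theorem patt_prs {C : Type} {O : Ops C} {F F' : FrD C} {R : List (List C)} {b c : Fin 8}
    (h : patt O F F' R b c = true) : b = c ∨ ((b : ℕ), (c : ℕ)) ∈ prs O F F' R := by
  by_cases hbc : b = c
  · exact Or.inl hbc
  · right
    have hne : (b : ℕ) ≠ c := fun e => hbc (Fin.ext e)
    simp only [prs, List.mem_flatMap, List.mem_map, List.mem_filter, List.mem_range]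
    refine ⟨b, b.2, c, ⟨c.2, ?_⟩, rfl⟩
    rw [Bool.and_eq_true]
    exact ⟨by simpa using hne, h⟩

/-- a cell from the list of its six rows and its `K`-vector -/
def mkF (l : List (List Cf)) : FrD Cf :=
  ⟨(List.range 6).map fun b => (l.getD b []).drop (b + 1),
    ((l.getD 6 []).getD 6 Cf.zero, (l.getD 6 []).getD 7 Cf.zero)⟩

/-- the ten frames -/
def fr1 (k : Fin 10) : FrD Cf := mkF (frV1.getD k [])

/-- pairs for an interior wall, both directions -/
def prI {N : ℕ} (fr : Fin N → FrD Cf) (k k' : Fin N) : List (ℕ × ℕ) :=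
  prs cfO (fr k) (fr k') relI ++ prs cfO (fr k') (fr k) relI

/-- pairs for the real interval `q` -/
def prR {N : ℕ} (fr : Fin N → FrD Cf) (k : Fin N) (q : Fin 4) : List (ℕ × ℕ) :=
  prs cfO (fr k) (cjD (fr k)) (relQ q)

theorem prI_mem {N : ℕ} {fr : Fin N → FrD Cf} {k k' : Fin N} {b c : Fin 8}
    (h : patt cfO (fr k) (fr k') relI b c = true ∨ patt cfO (fr k') (fr k) relI b c = true) :
    b = c ∨ ((b : ℕ), (c : ℕ)) ∈ prI fr k k' := by
  rcases h with h | h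
  · rcases patt_prs h with h | h
    · exact Or.inl h
    · exact Or.inr (List.mem_append_left _ h)
  · rcases patt_prs h with h | h
    · exact Or.inl h
    · exact Or.inr (List.mem_append_right _ h)

theorem prR_mem {N : ℕ} {fr : Fin N → FrD Cf} {k : Fin N} {q : Fin 4} {b c : Fin 8}
    (h : patt cfO (fr k) (cjD (fr k)) (relQ q) b c = true) :
    b = c ∨ ((b : ℕ), (c : ℕ)) ∈ prR fr k q := patt_prs h

/-- the eleven interior adjacencies and their pairs (one direction) -/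
def adjI : List ((Fin 10 × Fin 10) × List (ℕ × ℕ)) :=
  [((0, 1), [(3, 4), (3, 5), (3, 6), (3, 7), (6, 7)]),
   ((1, 2), [(4, 5), (4, 6), (4, 7), (6, 7)]),
   ((1, 6), [(2, 3), (2, 5)]),
   ((2, 3), [(1, 2)]),
   ((2, 7), [(2, 3), (2, 5)]),
   ((3, 4), [(3, 4), (3, 5), (3, 6)]),
   ((3, 5), [(2, 3), (2, 5)]),
   ((5, 7), [(1, 2), (1, 3), (1, 5)]),
   ((5, 9), [(3, 4), (3, 5), (3, 6), (3, 7)]),
   ((6, 7), [(4, 5), (4, 6), (4, 7), (6, 7)]),
   ((6, 8), [(3, 4), (3, 5), (3, 6), (3, 7)])]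

theorem prI_adj : ∀ x ∈ adjI, prI fr1 x.1.1 x.1.2 = x.2 ++ x.2 := by decide +kernel

/-- the real intervals -/
def adjR : List ((Fin 10 × Fin 4) × List (ℕ × ℕ)) :=
  [((9, 3), [(0, 2), (1, 3), (1, 4), (1, 6), (1, 7), (5, 6), (5, 7), (6, 7)]),
   ((5, 3), [(0, 2), (1, 3), (1, 5), (1, 6), (1, 7), (5, 6), (5, 7), (6, 7)]),
   ((7, 3), [(0, 2), (1, 3), (1, 5), (1, 6), (1, 7), (5, 6), (5, 7), (6, 7)]),
   ((6, 3), [(0, 2), (1, 3), (1, 5), (1, 6), (1, 7), (5, 6)]),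
   ((8, 3), [(0, 2), (1, 3), (1, 4), (5, 6)]),
   ((8, 0), [(2, 4)]),
   ((6, 0), [(2, 4), (3, 6)]),
   ((1, 0), [(2, 3), (2, 4), (2, 5), (2, 6), (3, 6)]),
   ((0, 0), [(2, 3), (2, 5), (2, 6)]),
   ((0, 1), []),
   ((1, 1), [(3, 6), (3, 7), (6, 7)]),
   ((2, 1), [(3, 6), (4, 6)]),
   ((3, 1), [(3, 6), (4, 6)]),
   ((4, 1), [(4, 6)]),
   ((4, 2), [(2, 3), (5, 6)]),
   ((3, 2), [(2, 3), (2, 4), (2, 5), (2, 6), (5, 6)]),
   ((5, 2), [(2, 4), (5, 6)]),
   ((9, 2), [(2, 4), (5, 6)])]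

theorem prR_adj : ∀ x ∈ adjR, prR fr1 x.1.1 x.1.2 = x.2 := by decide +kernel

/-! ### the `K`-lines -/

theorem kl_list : ∀ k : Fin 10, (fr1 k).kl = (cu, cz) ∨ (fr1 k).kl = (cI 2 1, cu) ∨
    (fr1 k).kl = (cu, cI (-1) 1) := by decide +kernel

theorem cv_cu (T : ℂ) : cv T cu = 1 := Cf.val_one
theorem cv_cz (T : ℂ) : cv T cz = 0 := Cf.val_zero
theorem cv_cI (T : ℂ) (n : ℤ) : cv T (cI n 1) = n * Complex.I := by
  simp [cv, cI, Cf.val, evL, Tm.ev]

theorem kl_fr1 (k : Fin 10) : 0 ≤ (Bt fr1 k 6 6 * conj (Bt fr1 k 6 7)).re ∧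
    (Bt fr1 k 6 6 ≠ 0 ∨ Bt fr1 k 6 7 ≠ 0) := by
  rw [Bt, toB_six_six, toB_six_seven]
  rcases kl_list k with h | h | h <;> rw [h] <;> simp [cv_cu, cv_cz, cv_cI]

end Vale.Agent.P030.H336
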