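import Vale.Agent.P030.H336.Fin1
import Vale.Agent.P030.H69.V1

/-!
# P030, route N: the pattern record with the literal tables of helper69's geometry (helper336)

`gpatV hX : H352.GPatR (frs1 hX) H352.discPk` with `pI`, `pR`, `kc`, `pC` = the fields of
`H69.V1.GN` (the composite pairs at the corners included).
-/

open Matrix Set
open scoped ComplexConjugate

namespace Vale.Agent.P030.H336

open Vale.Agent.P030.H265 Vale.Agent.P030.H580
open Vale.Agent.P030.H69.V1 (lkp GN)


theorem lkp_of {p : ℕ × ℕ} {k : ℕ × ℕ} : ∀ {l : List ((ℕ × ℕ) × List (ℕ × ℕ))},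
    (∀ x ∈ l, x.1 = k → x.2.contains p = true) → lkp l k p = true
  | [], _ => rfl
  | x :: l, h => by
    rw [lkp]
    split_ifs with hk
    · exact h x List.mem_cons_self hk
    · exact lkp_of fun y hy => h y (List.mem_cons_of_mem _ hy)

/-- the computed pairs are in the table, interior walls and corners -/
theorem chkLI : ∀ x ∈ H69.V1.lI, ∀ k k' : Fin 10, x.1 = (k.val, k'.val) →
    (prI fr1 k k').all (fun p => x.2.contains p) = true := by decide +kernel

/-- the same on the real line -/
theorem chkLR : ∀ x ∈ H69.V1.lR, ∀ q : Fin 4, ∀ k : Fin 10, x.1 = (q.val, k.val) →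
    (prR fr1 k q).all (fun p => x.2.contains p) = true := by decide +kernel

theorem inclI {k k' : Fin 10} {b c : Fin 8}
    (h : patt cfO (fr1 k) (fr1 k') H124.relI b c = true) : GN.pI k k' b c = true := by
  change (b == c || (lkp H69.V1.lI (k.val, k'.val) (b.val, c.val) &&
    lkp H69.V1.lI (k'.val, k.val) (b.val, c.val))) = true
  rw [Bool.or_eq_true, Bool.and_eq_true]
  by_cases hbc : b = c
  · exact Or.inl (by simpa using hbc)
  right
  have h1 : ((b : ℕ), (c : ℕ)) ∈ prI fr1 k k' := (prI_mem (Or.inl h)).resolve_left hbc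
  have h2 : ((b : ℕ), (c : ℕ)) ∈ prI fr1 k' k := (prI_mem (Or.inr h)).resolve_left hbc
  exact ⟨lkp_of fun x hx hk => List.all_eq_true.1 (chkLI x hx k k' hk) _ h1,
    lkp_of fun x hx hk => List.all_eq_true.1 (chkLI x hx k' k hk) _ h2⟩

theorem inclR {k : Fin 10} {q : Fin 4} {b c : Fin 8}
    (h : patt cfO (fr1 k) (cjD (fr1 k)) (H124.relQ q) b c = true) : GN.pR k q b c = true := by
  change (b == c || lkp H69.V1.lR (q.val, k.val) (b.val, c.val)) = true
  rw [Bool.or_eq_true]
  by_cases hbc : b = c
  · exact Or.inl (by simpa using hbc)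
  right
  have h1 : ((b : ℕ), (c : ℕ)) ∈ prR fr1 k q := (prR_mem h).resolve_left hbc
  exact lkp_of fun x hx hk => List.all_eq_true.1 (chkLR x hx q k hk) _ h1

theorem inclC : ∀ c : Fin 4, ∀ b b' : Fin 8, tC c b b' = true → GN.pC c b b' = true := by
  decide +kernel

theorem kcV (c : Fin 4) : GN.kc c = kc1 c := by fin_cases c <;> rfl

/-- **the patterns of the frozen table, with the tables of `GN`** -/
noncomputable def gpatV {X : Fin 8 → ℂ → Fin 8 → ℂ} (hX : YD X) :
    H352.GPatR (frs1 hX) H352.discPk where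
  pI := fun k k' b c => GN.pI k k' b c = true
  hI := fun _ _ _ h1 h2 _ _ hn => zero_I hX fr1 h1 h2 fun h => hn (inclI h)
  pR := fun k q b c => GN.pR k q b c = true
  hR := fun _ _ _ hz h1 h2 _ _ hn => zero_R hX fr1 hz h1 h2 fun h => hn (inclR h)
  kc := GN.kc
  pC := fun c b b' => GN.pC c b b' = true
  up := fun c z hz hu b b' hn => by
    rw [kcV] at hu ⊢
    exact up1 hX c z hz hu b b' fun h => hn (inclC c b b' h)
  dn := fun c z hz hu b b' hn => by
    rw [kcV] at hu ⊢
    exact dn1 hX c z hz hu b b' fun h => hn (inclC c b b' h)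

end Vale.Agent.P030.H336
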