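import Vale.Agent.P030.H336.Tab1
import Vale.Agent.P030.H352.NGenR
import Vale.Agent.P030.H514.Dict
import Vale.Agent.P030.H686.Cusp1P
import Vale.Agent.P030.H782.Cusp3

/-!
# P030, route N: the patterns of the frozen table in 352's record (helper336)

`tI`, `tR`, `tC`, `kc1` = literal tables (levels and cells counted from 0; `true` = the comparison
is needed or nothing is claimed).  `gpat1` = the record `H352.GPatR` of the flat frames `Bt fr1`
and the discs `H352.discPk`.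
-/

open Matrix Set Filter Topology
open scoped ComplexConjugate

namespace Vale.Agent.P030.H336

open Vale.Agent.P030.H639 (Rel Zr trans_zero cj kF_cj cst_cj)
open Vale.Agent.P030.H265 Vale.Agent.P030.AR
open Vale.Agent.P030.H580 (RY)

/-! ### zero entries from the patterns, any table -/

section gen

variable {N : ℕ} {X : Fin 8 → ℂ → Fin 8 → ℂ} (hX : YD X) (fr : Fin N → FrD H124.Cf)
include hX

/-- two upper cells at a point -/
theorem zero_I {k k' : Fin N} {z : ℂ} (h1 : z ∈ Uc X (Bt fr k)) (h2 : z ∈ Uc X (Bt fr k'))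
    {b c : Fin 8} (hn : ¬ patt cfO (fr k) (fr k') H124.relI b c = true) :
    (frm (Pz X z) (Bt fr k) b ᵥ* (frm (Pz X z) (Bt fr k'))⁻¹) c = 0 := by
  rcases hI_flat fr k k' with h | ⟨M, hM, hZ⟩
  · exact absurd (h b c) hn
  · exact trans_zero (Pz_adap hX h1.1) (cst_Bt fr k') hM (one_mul _).symm h1.2 h2.2 (hZ b c hn)

/-- an upper cell and its mirror image over the interval `q` -/
theorem zero_R {k : Fin N} {q : Fin 4} {z : ℂ} (hz : z ∈ Sq q) (h1 : z ∈ Uc X (Bt fr k))
    (h2 : conj z ∈ Uc X (Bt fr k)) {b c : Fin 8}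
    (hn : ¬ patt cfO (fr k) (cjD (fr k)) (H124.relQ q) b c = true) :
    (frm (Pz X z) (Bt fr k) b ᵥ* ((frm (Pz X (conj z)) (Bt fr k)).map conj)⁻¹) c = 0 := by
  rcases hR_flat fr k q with h | ⟨M, hM, hZ⟩
  · exact absurd (h b c) hn
  have hL : Pz X z = RqC q * Pm' X z := by
    ext i j
    rw [Matrix.mul_apply]
    exact Pz_strip hX q hz i j
  have hk2 : kF (Pm' X z) ((cj (Bt fr k)) 6 6) ((cj (Bt fr k)) 6 7) ≠ 0 := by
    have e : Pm' X z = cj (Pz X (conj z)) := rfl
    rw [e]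
    have h3 : kF (cj (Pz X (conj z))) ((cj (Bt fr k)) 6 6) ((cj (Bt fr k)) 6 7) =
        conj (kF (Pz X (conj z)) (Bt fr k 6 6) (Bt fr k 6 7)) := kF_cj _ _ _
    rw [h3]
    exact (map_ne_zero _).2 h2.2
  have h4 := trans_zero (Pm'_adap hX h2.1) (cst_cj (cst_Bt fr k)) hM hL h1.2 hk2 (hZ b c hn)
  rw [FPat.frm_mirror]
  exact h4

end gen

/-! ### the literal tables -/

/-- the list of pairs of two adjacent cells -/
def lI (k k' : ℕ) : Option (List (ℕ × ℕ)) :=
  (adjI.find? fun x => (x.1.1.val == k && x.1.2.val == k') ||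
    (x.1.1.val == k' && x.1.2.val == k)).map Prod.snd

/-- the list of pairs of a cell on an interval -/
def lR (k q : ℕ) : Option (List (ℕ × ℕ)) :=
  (adjR.find? fun x => x.1.1.val == k && x.1.2.val == q).map Prod.snd

/-- membership with the diagonal; `none` = everything -/
def hasP (l : Option (List (ℕ × ℕ))) (b c : ℕ) : Bool :=
  match l with
  | some l => b == c || l.contains (b, c)
  | none => true

/-- two upper cells -/
def tI (k k' : Fin 10) (b c : Fin 8) : Bool := hasP (lI k k') b c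

/-- a cell on an interval -/
def tR (k : Fin 10) (q : Fin 4) (b c : Fin 8) : Bool := hasP (lR k q) b c

/-- the cells of the cusp circles -/
def kc1 : Fin 4 → Fin 10 := ![4, 0, 8, 9]

/-- the lists of the cusp circles -/
def lC : Fin 4 → List (ℕ × ℕ)
  | 0 => [(2, 3), (4, 6), (5, 6)]
  | 1 => [(2, 3), (2, 5), (2, 6)]
  | 2 => [(0, 2), (0, 4), (1, 3), (1, 4), (2, 4), (5, 6)]
  | 3 => [(0, 2), (0, 4), (1, 3), (1, 4), (1, 6), (1, 7), (2, 4), (5, 6), (5, 7), (6, 7)]

/-- cusp circles -/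
def tC (c : Fin 4) (b b' : Fin 8) : Bool := hasP (some (lC c)) b b'

theorem hasP_iff {l : List (ℕ × ℕ)} {b c : ℕ} : hasP (some l) b c = true ↔ b = c ∨ (b, c) ∈ l := by
  simp [hasP]

theorem tI_of {k k' : Fin 10} {b c : Fin 8}
    (h : patt cfO (fr1 k) (fr1 k') H124.relI b c = true) : tI k k' b c = true := by
  unfold tI lI
  cases hf : adjI.find? fun x => (x.1.1.val == k.val && x.1.2.val == k'.val) ||
      (x.1.1.val == k'.val && x.1.2.val == k.val) with
  | none => rfl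
  | some x =>
    have hm := List.mem_of_find?_eq_some hf
    have hp := List.find?_some hf
    have ha := prI_adj x hm
    rw [Option.map_some, hasP_iff]
    simp only [Bool.or_eq_true, Bool.and_eq_true, beq_iff_eq] at hp
    rcases hp with ⟨h1, h2⟩ | ⟨h1, h2⟩
    · have e1 : x.1.1 = k := Fin.ext h1
      have e2 : x.1.2 = k' := Fin.ext h2
      rw [e1, e2] at ha
      rcases prI_mem (fr := fr1) (k := k) (k' := k') (Or.inl h) with h3 | h3
      · exact Or.inl (congrArg _ h3)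
      · rw [ha] at h3
        exact Or.inr ((List.mem_append.1 h3).elim id id)
    · have e1 : x.1.1 = k' := Fin.ext h1
      have e2 : x.1.2 = k := Fin.ext h2
      rw [e1, e2] at ha
      rcases prI_mem (fr := fr1) (k := k') (k' := k) (Or.inr h) with h3 | h3
      · exact Or.inl (congrArg _ h3)
      · rw [ha] at h3
        exact Or.inr ((List.mem_append.1 h3).elim id id)

theorem tR_of {k : Fin 10} {q : Fin 4} {b c : Fin 8}
    (h : patt cfO (fr1 k) (cjD (fr1 k)) (H124.relQ q) b c = true) : tR k q b c = true := by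
  unfold tR lR
  cases hf : adjR.find? fun x => x.1.1.val == k.val && x.1.2.val == q.val with
  | none => rfl
  | some x =>
    have hm := List.mem_of_find?_eq_some hf
    have hp := List.find?_some hf
    have ha := prR_adj x hm
    rw [Option.map_some, hasP_iff]
    simp only [Bool.and_eq_true, beq_iff_eq] at hp
    have e1 : x.1.1 = k := Fin.ext hp.1
    have e2 : x.1.2 = q := Fin.ext hp.2
    rw [e1, e2] at ha
    rcases prR_mem (fr := fr1) h with h3 | h3
    · exact Or.inl (congrArg _ h3)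
    · rw [ha] at h3
      exact Or.inr h3

/-- the frames of the upper cells -/
noncomputable def frs1 {X : Fin 8 → ℂ → Fin 8 → ℂ} (hX : YD X) : Frs 10 :=
  frsP hX (Bt fr1) (cst_Bt fr1) (fun k => (kl_fr1 k).1) fun k => (kl_fr1 k).2

/-- the cusp patterns -/
def pC1 (c : Fin 4) (b b' : Fin 8) : Prop := tC c b b' = true

/-! ### the cusp circles -/

theorem tC0_eq : ∀ b b' : Fin 8, tC 0 b b' = H992.patc0 b b' := by decide
theorem tC1_eq : ∀ b b' : Fin 8, tC 1 b b' = H686.pat1 b b' := by decide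
theorem tC2_of : ∀ b b' : Fin 8, (b, b') ∈ H514.pat2 → tC 2 b b' = true := by decide
theorem tC3_of : ∀ b b' : Fin 8, (b, b') ∈ H782.pat3 → tC 3 b b' = true := by decide

theorem ne_of_tC {c : Fin 4} {b b' : Fin 8} (hn : ¬ pC1 c b b') : b ≠ b' := by
  rintro rfl
  exact hn (hasP_iff.2 (Or.inl rfl))

section cusps

variable {X : Fin 8 → ℂ → Fin 8 → ℂ} (hX : YD X)
include hX

/-- cell to disc -/
theorem up1 (c : Fin 4) (z : ℂ) (hz : yz z ∈ RY c) (hu : z ∈ Uc X (Bt fr1 (kc1 c)))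
    (b b' : Fin 8) (hn : ¬ pC1 c b b') :
    (frm (Pz X z) (Bt fr1 (kc1 c)) b ᵥ* (H352.Dz c z)⁻¹) b' = 0 := by
  have hbb := ne_of_tC hn
  have ho := H782.RY_sub hz
  have hd := (H782.tz_of_RY hz).1
  have hk := hu.2
  fin_cases c
  · have e : Bt fr1 (kc1 0) = H992.BF4z := H514.bt4
    have hn' : tC 0 b b' = false := by simpa using (show ¬ tC 0 b b' = true from hn)
    rw [tC0_eq] at hn'
    change (frm (Pz X z) (Bt fr1 (kc1 0)) b ᵥ* (H352.Dz 0 z)⁻¹) b' = 0
    rw [e]
    exact H992.hC1_0 hX ho hd hn'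
  · have e : Bt fr1 (kc1 1) = H352.BR 1 := H514.bt0.trans H686.BF0_eq
    have hn' : tC 1 b b' = false := by simpa using (show ¬ tC 1 b b' = true from hn)
    rw [tC1_eq] at hn'
    change (frm (Pz X z) (Bt fr1 (kc1 1)) b ᵥ* (H352.Dz 1 z)⁻¹) b' = 0
    rw [e]
    exact H686.c1_up hX ho hd hn'
  · have e : Bt fr1 (kc1 2) = H514.BF8 := H514.bt8
    change kF (Pz X z) (Bt fr1 (kc1 2) 6 6) (Bt fr1 (kc1 2) 6 7) ≠ 0 at hk
    change (frm (Pz X z) (Bt fr1 (kc1 2)) b ᵥ* (H352.Dz 2 z)⁻¹) b' = 0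
    rw [e] at hk ⊢
    exact H514.ct2.at_up hX hz hk hbb fun h => hn (tC2_of b b' h)
  · have e : Bt fr1 (kc1 3) = H782.BF9 := H514.bt9
    change kap X (Bt fr1 (kc1 3)) z ≠ 0 at hk
    change (frm (Pz X z) (Bt fr1 (kc1 3)) b ᵥ* (H352.Dz 3 z)⁻¹) b' = 0
    rw [e] at hk ⊢
    exact H782.up3 hX hz hk hbb fun h => hn (tC3_of b b' h)

/-- disc to cell -/
theorem dn1 (c : Fin 4) (z : ℂ) (hz : yz z ∈ RY c) (hu : z ∈ Uc X (Bt fr1 (kc1 c)))
    (b b' : Fin 8) (hn : ¬ pC1 c b b') :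
    (H352.Dz c z b ᵥ* (frm (Pz X z) (Bt fr1 (kc1 c)))⁻¹) b' = 0 := by
  have hbb := ne_of_tC hn
  have ho := H782.RY_sub hz
  have hd := (H782.tz_of_RY hz).1
  have hk := hu.2
  fin_cases c
  · have e : Bt fr1 (kc1 0) = H992.BF4z := H514.bt4
    have hn' : tC 0 b b' = false := by simpa using (show ¬ tC 0 b b' = true from hn)
    rw [tC0_eq] at hn'
    change (H352.Dz 0 z b ᵥ* (frm (Pz X z) (Bt fr1 (kc1 0)))⁻¹) b' = 0
    rw [e]
    exact H992.hC2_0 hX ho hd hn'
  · have e : Bt fr1 (kc1 1) = H352.BR 1 := H514.bt0.trans H686.BF0_eq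
    have hn' : tC 1 b b' = false := by simpa using (show ¬ tC 1 b b' = true from hn)
    rw [tC1_eq] at hn'
    change (H352.Dz 1 z b ᵥ* (frm (Pz X z) (Bt fr1 (kc1 1)))⁻¹) b' = 0
    rw [e]
    exact H686.c1_dn hX ho hd hn'
  · have e : Bt fr1 (kc1 2) = H514.BF8 := H514.bt8
    change kF (Pz X z) (Bt fr1 (kc1 2) 6 6) (Bt fr1 (kc1 2) 6 7) ≠ 0 at hk
    change (H352.Dz 2 z b ᵥ* (frm (Pz X z) (Bt fr1 (kc1 2)))⁻¹) b' = 0
    rw [e] at hk ⊢
    exact H514.ct2.at_dn hX hz hk hbb fun h => hn (tC2_of b b' h)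
  · have e : Bt fr1 (kc1 3) = H782.BF9 := H514.bt9
    change kap X (Bt fr1 (kc1 3)) z ≠ 0 at hk
    change (H352.Dz 3 z b ᵥ* (frm (Pz X z) (Bt fr1 (kc1 3)))⁻¹) b' = 0
    rw [e] at hk ⊢
    exact H782.dn3 hX hz hk hbb fun h => hn (tC3_of b b' h)

end cusps

/-- **the patterns of the frozen table** -/
noncomputable def gpat1 {X : Fin 8 → ℂ → Fin 8 → ℂ} (hX : YD X) :
    H352.GPatR (frs1 hX) H352.discPk where
  pI := fun k k' b c => tI k k' b c = true
  hI := fun k k' z h1 h2 b c hn => zero_I hX fr1 h1 h2 fun h => hn (tI_of h)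
  pR := fun k q b c => tR k q b c = true
  hR := fun k q z hz h1 h2 b c hn => zero_R hX fr1 hz h1 h2 fun h => hn (tR_of h)
  kc := kc1
  pC := pC1
  up := up1 hX
  dn := dn1 hX

@[simp] theorem gpat1_kc {X : Fin 8 → ℂ → Fin 8 → ℂ} (hX : YD X) : (gpat1 hX).kc = kc1 := rfl

end Vale.Agent.P030.H336
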