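import Vale.Agent.P030.H336.PattAlg
import Vale.Agent.P030.T.H124.RelVal
import Vale.Agent.P030.AR.NInst

/-!
# P030, route N: the flat cells and their patterns (helper336)

`patt_rel` : the computed pattern gives 639's `Rel` and `Zr` (any coefficient type, any relation).
`cfO` = the operations of 124's coefficients, `cv 0` = evaluation at `i`, `iπ`, `log 2 / 2`.
A table of cells is `fr : Fin N → FrD Cf`; `Bt fr k` = constants; `hI_flat`, `hR_flat` = the two
flat fields of 991's `FPat`.
-/

open Set Filter Topology Matrix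
open scoped ComplexConjugate

namespace Vale.Agent.P030.H336

open Vale.Agent.P030.H639 (Rel Zr)

section generic

variable {C : Type} {O : Ops C} {φ : C → ℂ}

/-- the coordinates of the rows of `F` in the rows of `F'` -/
noncomputable def MM (O : Ops C) (φ : C → ℂ) (F F' : FrD C) (R : List (List C)) :
    Matrix (Fin 8) (Fin 8) ℂ := fun b c =>
  if b < 6 then
    if c < 6 then φ (get O (solve O F'.up (beta O F R b)).1 c)
    else if c = 6 then φ (get O (solve O F'.up (beta O F R b)).2 0)
    else φ (get O (solve O F'.up (beta O F R b)).2 1)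
  else φ (get O (klR O F R) c)

theorem len_up {F F' : FrD C} {R : List (List C)} (ho : okR O F F' R = true) :
    F'.up.length = 6 := by
  simp only [okR, Bool.and_eq_true] at ho
  exact Nat.eq_of_beq_eq_true ho.1

theorem len_row {F F' : FrD C} {R : List (List C)} (ho : okR O F F' R = true) {b : Fin 8}
    (hb : b < 6) : (F.up.getD b []).length ≤ 7 - b := by
  have hb8 : (b : ℕ) < 6 := by exact_mod_cast hb
  simp only [okR, Bool.and_eq_true, List.all_eq_true, List.mem_range] at ho
  exact Nat.le_of_ble_eq_true (ho.2.1 b hb8)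

/-- the computed coordinates satisfy 639's relation -/
theorem rel_of_okR (h : Ev O φ) {F F' : FrD C} {R : List (List C)}
    {L : Matrix (Fin 8) (Fin 8) ℂ} (hL : ∀ i k : Fin 8, φ (get O (R.getD i []) k) = L i k)
    (ho : okR O F F' R = true) : Rel (toB O φ F) L (toB O φ F') (MM O φ F F' R) where
  lt := by
    intro b hb i
    have e1 : (∑ k, toB O φ F b k * L k i) = φ (get O (beta O F R b) i) := by
      rw [ev_beta h F R b hb (len_row ho hb)]
      exact Finset.sum_congr rfl fun k _ => by rw [hL]
    rw [e1]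
    have e2 := ev_solve h F'.up (beta O F R b) i
    rw [len_up ho, sum_six fun c => φ (get O (solve O F'.up (beta O F R b)).1 c) *
      Bf O φ F'.up c i] at e2
    rw [e2]
    have e3 : ∀ c : Fin 8, (if c < 6 then φ (get O (solve O F'.up (beta O F R b)).1 c) *
        Bf O φ F'.up c i else 0) = if c < 6 then MM O φ F F' R b c * toB O φ F' c i else 0 := by
      intro c
      split_ifs with hc
      · rw [toB_low F' hc, MM, if_pos hb, if_pos hc]
      · rfl
    rw [Finset.sum_congr rfl fun c _ => e3 c]
    congr 1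
    have h66 : ¬ (6 : Fin 8) < 6 := by decide
    have h76 : ¬ (7 : Fin 8) < 6 := by decide
    have h7 : (7 : Fin 8) ≠ 6 := by decide
    by_cases hi6 : i = 6
    · subst hi6
      simp [MM, hb]
    · by_cases hi7 : i = 7
      · subst hi7
        simp [MM, hb, h7, h76]
      · have : (i : ℕ) < 6 := by omega
        simp [hi6, hi7, this]
  six := by
    intro i hi
    have h66 : ¬ (6 : Fin 8) < 6 := by decide
    rw [MM, if_neg h66, klR_ev h, toB_six_six, toB_six_seven, ← hL 6 i, ← hL 7 i]
    rfl
  low := by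
    intro j hj
    have hj8 : (j : ℕ) < 6 := by exact_mod_cast hj
    simp only [okR, Bool.and_eq_true, List.all_eq_true, List.mem_range] at ho
    have h1 := ho.2.2 j hj8
    exact ⟨by rw [← hL 6 j]; exact h.isZ _ h1.1, by rw [← hL 7 j]; exact h.isZ _ h1.2⟩

/-- **the computed pattern gives 639's zeros** -/
theorem zr_of_patt (h : Ev O φ) {F F' : FrD C} {R : List (List C)} {b c : Fin 8}
    (hp : patt O F F' R b c = false) : Zr (MM O φ F F' R) (toB O φ F') b c := by
  have ho := okR_of_patt hp
  have hlen : ((List.range 6).map (rowP O F F' R)).length = 6 := by simp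
  have h76 : (7 : Fin 8) ≠ 6 := by decide
  unfold Zr
  by_cases h7 : b = 7
  · subst h7
    rw [if_pos rfl]
    rintro rfl
    have hrow : (tbl O F F' R).getD ((7 : Fin 8) : ℕ) [] =
        [false, false, false, false, false, false, false, true] := by
      rw [tbl, if_pos ho]
      exact getD_append_six _ _ hlen _ 1
    rw [patt, hrow] at hp
    simp at hp
  rw [if_neg h7]
  by_cases h6 : b = 6
  · subst h6
    rw [if_pos rfl]
    have hrow : (tbl O F F' R).getD ((6 : Fin 8) : ℕ) [] =
        [false, false, false, false, false, false, true,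
          !(O.isZ (crs O (get O (klR O F R) 6, get O (klR O F R) 7) F'.kl))] := by
      rw [tbl, if_pos ho]
      exact getD_append_six _ _ hlen _ 0
    rw [patt, hrow] at hp
    by_cases hc : c < 6
    · exact Or.inl hc
    · right
      have : c = 6 ∨ c = 7 := by omega
      rcases this with rfl | rfl
      · simp at hp
      · refine ⟨rfl, ?_⟩
        have hz : O.isZ (crs O (get O (klR O F R) 6, get O (klR O F R) 7) F'.kl) = true := by
          simpa using hp
        have hz' := h.isZ _ hz
        rw [crs, h.add, h.neg, h.mul, h.mul] at hz'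
        have h66 : ¬ (6 : Fin 8) < 6 := by decide
        have e6 : ((6 : Fin 8) : ℕ) = 6 := rfl
        have e7 : ((7 : Fin 8) : ℕ) = 7 := rfl
        simp only [MM, if_neg h66, toB_six_six, toB_six_seven, e6, e7]
        linear_combination hz'
  rw [if_neg h6]
  have hb : b < 6 := by omega
  have hr := patt_low hb hp
  have h66 : ¬ (6 : Fin 8) < 6 := by decide
  have h76' : ¬ (7 : Fin 8) < 6 := by decide
  by_cases hc7 : c = 7
  · subst hc7
    rw [if_pos rfl]
    have hz := h.isZ _ (rowP_seven hr)
    rw [crs, h.add, h.neg, h.mul, h.mul] at hz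
    simp only [MM, if_pos hb, if_neg h66, if_neg h76', if_true, if_neg h76, toB_six_six,
      toB_six_seven]
    linear_combination hz
  rw [if_neg hc7]
  by_cases hc6 : c = 6
  · subst hc6
    rw [if_pos rfl]
    obtain ⟨z0, z1⟩ := rowP_six hr
    simp only [MM, if_pos hb, if_neg h66, if_neg h76', if_true, if_neg h76]
    exact ⟨h.isZ _ z0, h.isZ _ z1⟩
  rw [if_neg hc6]
  have hc : c < 6 := by omega
  have hc8 : (c : ℕ) < 6 := by exact_mod_cast hc
  simp only [MM, if_pos hb, if_pos hc]
  exact h.isZ _ (rowP_lt hc8 hr)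

/-- **the pattern of a pair of cells in 991's form** -/
theorem patt_rel (h : Ev O φ) {F F' : FrD C} {R : List (List C)}
    {L : Matrix (Fin 8) (Fin 8) ℂ} (hL : ∀ i k : Fin 8, φ (get O (R.getD i []) k) = L i k) :
    (∀ b c, patt O F F' R b c = true) ∨
      ∃ M, Rel (toB O φ F) L (toB O φ F') M ∧
        ∀ b c, ¬ patt O F F' R b c = true → Zr M (toB O φ F') b c := by
  by_cases ho : okR O F F' R = true
  · exact Or.inr ⟨MM O φ F F' R, rel_of_okR h hL ho, fun b c hn =>
      zr_of_patt h (by simpa using hn)⟩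
  · left
    intro b c
    rw [Bool.not_eq_true] at ho
    simp [patt, tbl, ho]

end generic

open Vale.Agent.P030.H124 Vale.Agent.P030.H265 Vale.Agent.P030.AR

/-- the operations -/
def cfO : Ops Cf := ⟨Cf.zero, Cf.one, Cf.add, Cf.mul, Cf.neg, Cf.isZ⟩

/-- evaluations respect the operations -/
theorem ev_cfO {ι p w T : ℂ} (hι : ι * ι = -1) : Ev cfO (Cf.val ι p w T) where
  zero := Cf.val_zero
  one := Cf.val_one
  add := Cf.val_add
  mul := Cf.val_mul hι
  neg := Cf.val_neg
  isZ := fun _ h => Cf.val_isZ h

theorem ev_cv (T : ℂ) : Ev cfO (cv T) := ev_cfO Complex.I_mul_I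

/-- conjugated data -/
def cjD (F : FrD Cf) : FrD Cf := ⟨F.up.map fun r => r.map Cf.cj, (F.kl.1.cj, F.kl.2.cj)⟩

theorem cv_cj (x : Cf) : cv 0 x.cj = conj (cv 0 x) := by
  have h2 : conj (2 : ℂ) = 2 := map_ofNat _ 2
  rw [cv, cv, Cf.val_cj, Cf.star_val]
  simp [conj_pc, conj_l2, h2]

theorem get_map_cj (l : List Cf) (i : ℕ) : cv 0 (get cfO (l.map Cf.cj) i) =
    conj (cv 0 (get cfO l i)) := by
  have h0 : cv 0 cfO.zero = 0 := (ev_cv 0).zero
  unfold get
  rw [List.getD_eq_getElem?_getD, List.getD_eq_getElem?_getD, List.getElem?_map]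
  cases h : l[i]? with
  | none => simp [h0]
  | some x => simp [cv_cj]

/-- the constants of the conjugated cell -/
theorem toB_cjD (F : FrD Cf) : toB cfO (cv 0) (cjD F) = H639.cj (toB cfO (cv 0) F) := by
  have e : ∀ i, (F.up.map fun r => r.map Cf.cj).getD i [] = (F.up.getD i []).map Cf.cj := by
    intro i
    rw [List.getD_eq_getElem?_getD, List.getD_eq_getElem?_getD, List.getElem?_map]
    cases h : F.up[i]? with
    | none => simp
    | some x => simp
  funext b i
  rw [H639.cj_apply]
  simp only [toB, cjD, Bf, e, get_map_cj, cv_cj]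
  split_ifs <;> simp

/-- the constants of the cells -/
noncomputable def Bt {N : ℕ} (fr : Fin N → FrD Cf) (k : Fin N) : Matrix (Fin 8) (Fin 8) ℂ :=
  toB cfO (cv 0) (fr k)

theorem cst_Bt {N : ℕ} (fr : Fin N → FrD Cf) (k : Fin N) : Cst (Bt fr k) := cst_toB _ _ _

theorem get_eq_ofL (R : List (List Cf)) (i k : Fin 8) :
    get cfO (R.getD i []) k = ofL R i k := rfl

/-- **field `hI`** : two upper cells -/
theorem hI_flat {N : ℕ} (fr : Fin N → FrD Cf) (k k' : Fin N) :
    (∀ b c, patt cfO (fr k) (fr k') relI b c = true) ∨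
      ∃ M, Rel (Bt fr k) 1 (Bt fr k') M ∧
        ∀ b c, ¬ patt cfO (fr k) (fr k') relI b c = true → Zr M (Bt fr k') b c :=
  patt_rel (ev_cv 0) fun i j => congrFun (congrFun (relQ_val 2 0) i) j

/-- **field `hR`** : an upper cell and its mirror image on the interval `q` -/
theorem hR_flat {N : ℕ} (fr : Fin N → FrD Cf) (k : Fin N) (q : Fin 4) :
    (∀ b c, patt cfO (fr k) (cjD (fr k)) (relQ q) b c = true) ∨
      ∃ M, Rel (Bt fr k) (RqC q) (H639.cj (Bt fr k)) M ∧
        ∀ b c, ¬ patt cfO (fr k) (cjD (fr k)) (relQ q) b c = true →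
          Zr M (H639.cj (Bt fr k)) b c := by
  have h := patt_rel (F := fr k) (F' := cjD (fr k)) (R := relQ q) (L := RqC q) (ev_cv 0)
    fun i j => congrFun (congrFun (relQ_val q 0) i) j
  rw [toB_cjD] at h
  exact h

end Vale.Agent.P030.H336
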