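import Vale.Agent.P030.H265.FrameAlg

/-!
# P030, route N, piece (B): computable zero patterns of transitions, generic half (helper336)

Coefficients live in an abstract type `C` with computable operations `Ops C` and evaluations
`φ : C → ℂ` (`Ev O φ`).  A cell is a `FrD C`: the strictly upper parts of its six low rows and
its `K`-vector.  `patt O F F' R` is the pattern of the transition from the frame `F` over `P` to
the frame `F'` over `P'`, where `P = R * P'`.
-/

open Matrix

namespace Vale.Agent.P030.H336

/-- computable operations on coefficients -/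
structure Ops (C : Type) where
  zero : C
  one : C
  add : C → C → C
  mul : C → C → C
  neg : C → C
  isZ : C → Bool

variable {C : Type}

/-- an evaluation compatible with the operations -/
structure Ev (O : Ops C) (φ : C → ℂ) : Prop where
  zero : φ O.zero = 0
  one : φ O.one = 1
  add : ∀ a b, φ (O.add a b) = φ a + φ b
  mul : ∀ a b, φ (O.mul a b) = φ a * φ b
  neg : ∀ a, φ (O.neg a) = -φ a
  isZ : ∀ a, O.isZ a = true → φ a = 0

/-- the data of a cell: `up` = six lists, the list number `b` holds the entries `b+1, …, 7` of the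
row `b` (entry `b` is `1`, the entries before it are `0`); `kl` = the `K`-vector -/
structure FrD (C : Type) where
  up : List (List C)
  kl : C × C

variable (O : Ops C)

/-- entry of a list, `zero` outside -/
def get (l : List C) (i : ℕ) : C := l.getD i O.zero

/-- sum of lists -/
def addL : List C → List C → List C
  | [], l => l
  | a :: l, [] => a :: l
  | a :: l, b :: m => O.add a b :: addL l m

/-- multiple of a list -/
def smulL (a : C) (l : List C) : List C := l.map (O.mul a)

/-- row vector times matrix -/
def vm : List C → List (List C) → List C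
  | [], _ => []
  | _ :: _, [] => []
  | a :: v, r :: R => if O.isZ a then vm v R else addL O (smulL O a r) (vm v R)

/-- forward substitution in the rows `1 | r`: `β = Σ_c M_c row_c + ρ` -/
def solve : List (List C) → List C → List C × List C
  | [], β => ([], β)
  | r :: rs, β =>
    let m := get O β 0
    let s := solve rs (if O.isZ m then β.tail else addL O β.tail (smulL O (O.neg m) r))
    (m :: s.1, s.2)

/-- the cross product of two `K`-vectors -/
def crs (x y : C × C) : C := O.add (O.mul x.1 y.2) (O.neg (O.mul x.2 y.1))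

/-- coordinates of the row `b` of the cell in the rows of `P'` -/
def beta (F : FrD C) (R : List (List C)) (b : ℕ) : List C :=
  addL O (R.getD b []) (vm O (F.up.getD b []) (R.drop (b + 1)))

/-- the pattern of the row `b < 6` -/
def rowP (F F' : FrD C) (R : List (List C)) (b : ℕ) : List Bool :=
  let s := solve O F'.up (beta O F R b)
  (List.range 6).map (fun c => !(O.isZ (get O s.1 c))) ++
    [!(O.isZ (get O s.2 0) && O.isZ (get O s.2 1)),
      !(O.isZ (crs O (get O s.2 0, get O s.2 1) F'.kl))]

/-- the `K`-vector of the cell in the rows of `P'` -/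
def klR (F : FrD C) (R : List (List C)) : List C := vm O [F.kl.1, F.kl.2] (R.drop 6)

/-- the rows `6, 7` of the relation have no low entries, six rows in each cell -/
def okR (F F' : FrD C) (R : List (List C)) : Bool :=
  (Nat.beq F'.up.length 6) &&
  ((List.range 6).all (fun b => Nat.ble (F.up.getD b []).length (7 - b)) &&
  ((List.range 6).all (fun k => O.isZ (get O (R.getD 6 []) k) && O.isZ (get O (R.getD 7 []) k))))

/-- the whole pattern -/
def tbl (F F' : FrD C) (R : List (List C)) : List (List Bool) :=
  if okR O F F' R then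
    (List.range 6).map (rowP O F F' R) ++
      [[false, false, false, false, false, false, true,
        !(O.isZ (crs O (get O (klR O F R) 6, get O (klR O F R) 7) F'.kl))],
       [false, false, false, false, false, false, false, true]]
  else []

/-- `patt b c = false` : the entry of the transition at b, c is zero -/
def patt (F F' : FrD C) (R : List (List C)) (b c : Fin 8) : Bool :=
  ((tbl O F F' R).getD b []).getD c true

/-- the pairs `b → c` off the diagonal -/
def prs (F F' : FrD C) (R : List (List C)) : List (ℕ × ℕ) :=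
  (List.range 8).flatMap fun b => ((List.range 8).filter fun c =>
    b != c && ((tbl O F F' R).getD b []).getD c true).map fun c => (b, c)

/-- the relation of an interior wall -/
def idR : List (List C) :=
  (List.range 8).map fun i => (List.range 8).map fun k => if i = k then O.one else O.zero

/-! ### the constants of a cell -/

variable (φ : C → ℂ)

/-- entries of the low rows -/
def Bf (rs : List (List C)) (c k : ℕ) : ℂ :=
  if k < c then 0 else if k = c then 1 else φ (get O (rs.getD c []) (k - c - 1))

/-- the constants of the cell in 265's form -/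
def toB (F : FrD C) : Matrix (Fin 8) (Fin 8) ℂ := fun b i =>
  if b < 6 then Bf O φ F.up b i
  else if b = 6 then (if i = 6 then φ F.kl.1 else if i = 7 then φ F.kl.2 else 0) else 0

theorem cst_toB (F : FrD C) : H265.Cst (toB O φ F) := by
  refine ⟨fun i j hi hj => ?_, fun i hi => ?_, fun j hj => ?_⟩
  · have : (j : ℕ) < i := hj
    simp [toB, hi, Bf, this]
  · simp [toB, hi, Bf]
  · have h6 : j ≠ 6 := hj.ne
    have h7 : j ≠ 7 := by rintro rfl; exact absurd hj (by decide)
    simp [toB, h6, h7]

theorem toB_six_six (F : FrD C) : toB O φ F 6 6 = φ F.kl.1 := by simp [toB]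
theorem toB_six_seven (F : FrD C) : toB O φ F 6 7 = φ F.kl.2 := by
  have : (7 : Fin 8) ≠ 6 := by decide
  simp [toB, this]

/-! ### evaluation lemmas -/

variable {O φ}

theorem get_cons_zero (a : C) (l : List C) : get O (a :: l) 0 = a := rfl
theorem get_cons_succ (a : C) (l : List C) (i : ℕ) : get O (a :: l) (i + 1) = get O l i := rfl
theorem get_nil (i : ℕ) : get O [] i = O.zero := rfl

theorem get_tail (l : List C) (i : ℕ) : get O l.tail i = get O l (i + 1) := by
  cases l with
  | nil => rfl
  | cons a l => rfl

theorem ev_get_addL (h : Ev O φ) : ∀ (l m : List C) (i : ℕ),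
    φ (get O (addL O l m) i) = φ (get O l i) + φ (get O m i)
  | [], m, i => by simp [addL, get_nil, h.zero]
  | a :: l, [], i => by simp [addL, get_nil, h.zero]
  | a :: l, b :: m, 0 => by simp only [addL, get_cons_zero, h.add]
  | a :: l, b :: m, i + 1 => by
    simp only [addL, get_cons_succ]
    exact ev_get_addL h l m i

theorem ev_get_smulL (h : Ev O φ) (a : C) : ∀ (l : List C) (i : ℕ),
    φ (get O (smulL O a l) i) = φ a * φ (get O l i)
  | [], i => by simp [smulL, get_nil, h.zero]
  | b :: l, 0 => by
    simp only [smulL, List.map_cons, get_cons_zero, h.mul]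
  | b :: l, i + 1 => by
    have := ev_get_smulL h a l i
    simpa only [smulL, List.map_cons, get_cons_succ] using this

theorem ev_get_vm (h : Ev O φ) : ∀ (v : List C) (R : List (List C)) (n k : ℕ), v.length ≤ n →
    φ (get O (vm O v R) k) = ∑ i ∈ Finset.range n, φ (get O v i) * φ (get O (R.getD i []) k)
  | [], R, n, k, _ => by
    simp [vm, get_nil, h.zero]
  | a :: v, [], n, k, _ => by
    simp [vm, get_nil, h.zero]
  | a :: v, r :: R, 0, k, hn => by simp at hn
  | a :: v, r :: R, n + 1, k, hn => by
    have hn' : v.length ≤ n := by simpa using hn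
    have ih := ev_get_vm h v R n k hn'
    rw [Finset.sum_range_succ']
    simp only [get_cons_succ, List.getD_cons_succ, get_cons_zero, List.getD_cons_zero]
    rw [← ih, vm]
    split_ifs with hz
    · rw [h.isZ a hz]; ring
    · rw [ev_get_addL h, ev_get_smulL h]; ring

theorem Bf_succ (r : List C) (rs : List (List C)) (c k : ℕ) :
    Bf O φ (r :: rs) (c + 1) (k + 1) = Bf O φ rs c k := by
  unfold Bf
  have e : k + 1 - (c + 1) - 1 = k - c - 1 := by omega
  simp only [Nat.add_lt_add_iff_right, Nat.add_right_cancel_iff, List.getD_cons_succ, e]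

theorem ev_solve (h : Ev O φ) : ∀ (rs : List (List C)) (β : List C) (k : ℕ),
    φ (get O β k) = (∑ c ∈ Finset.range rs.length,
        φ (get O (solve O rs β).1 c) * Bf O φ rs c k) +
      if k < rs.length then 0 else φ (get O (solve O rs β).2 (k - rs.length))
  | [], β, k => by simp [solve]
  | r :: rs, β, 0 => by
    rw [List.length_cons, Finset.sum_range_succ', if_pos (Nat.succ_pos _)]
    have h0 : ∀ c ∈ Finset.range rs.length,
        φ (get O (solve O (r :: rs) β).1 (c + 1)) * Bf O φ (r :: rs) (c + 1) 0 = 0 := by
      intro c _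
      simp [Bf]
    rw [Finset.sum_eq_zero h0]
    simp [solve, get_cons_zero, Bf]
  | r :: rs, β, k + 1 => by
    rw [List.length_cons, Finset.sum_range_succ']
    have ih := ev_solve h rs (if O.isZ (get O β 0) then β.tail
      else addL O β.tail (smulL O (O.neg (get O β 0)) r)) k
    have e1 : ∀ c, φ (get O (solve O (r :: rs) β).1 (c + 1)) * Bf O φ (r :: rs) (c + 1) (k + 1) =
        φ (get O (solve O rs (if O.isZ (get O β 0) then β.tail
          else addL O β.tail (smulL O (O.neg (get O β 0)) r))).1 c) * Bf O φ rs c k := by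
      intro c
      rw [Bf_succ]
      simp only [solve, get_cons_succ]
    have e2 : (solve O (r :: rs) β).2 = (solve O rs (if O.isZ (get O β 0) then β.tail
          else addL O β.tail (smulL O (O.neg (get O β 0)) r))).2 := by
      simp only [solve]
    have e3 : k + 1 - (rs.length + 1) = k - rs.length := by omega
    have e4 : φ (get O (solve O (r :: rs) β).1 0) * Bf O φ (r :: rs) 0 (k + 1) =
        φ (get O β 0) * φ (get O r k) := by
      simp only [solve, get_cons_zero, Bf]
      simp
    simp only [e1, e2, e3, e4, Nat.add_lt_add_iff_right]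
    have e5 : φ (get O (if O.isZ (get O β 0) then β.tail
      else addL O β.tail (smulL O (O.neg (get O β 0)) r)) k) =
        φ (get O β (k + 1)) - φ (get O β 0) * φ (get O r k) := by
      split_ifs with hz
      · rw [get_tail, h.isZ _ hz]; ring
      · rw [ev_get_addL h, ev_get_smulL h, h.neg, get_tail]; ring
    rw [e5] at ih
    linear_combination ih

/-! ### soundness -/

theorem isUnit_det_frm {P B : Matrix (Fin 8) (Fin 8) ℂ} (hP : H265.Adap P) (hB : H265.Cst B) :
    IsUnit (H265.frm P B).det := by
  obtain ⟨h1, h2⟩ := H265.frm_unitri hP hB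
  have h3 : (H265.frm P B).BlockTriangular id := fun i j hij => h1 i j hij
  rw [Matrix.det_of_isUpperTriangular h3]
  simp [h2]

/-- coordinates of the rows -/
theorem ev_beta (h : Ev O φ) (F : FrD C) (R : List (List C)) (b : Fin 8) (hb : b < 6)
    (hlen : (F.up.getD b []).length ≤ 7 - b) (k : ℕ) :
    φ (get O (beta O F R b) k) =
      ∑ i : Fin 8, toB O φ F b i * φ (get O (R.getD i []) k) := by
  have hb8 : (b : ℕ) < 6 := by exact_mod_cast hb
  rw [beta, ev_get_addL h, ev_get_vm h _ _ (7 - b) k hlen]
  have e1 : (∑ i : Fin 8, toB O φ F b i * φ (get O (R.getD i []) k)) =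
      ∑ i ∈ Finset.range 8, Bf O φ F.up b i * φ (get O (R.getD i []) k) := by
    rw [Finset.sum_range fun i => Bf O φ F.up b i * φ (get O (R.getD i []) k)]
    refine Finset.sum_congr rfl fun i _ => ?_
    simp [toB, hb]
  rw [e1]
  have e2 : Finset.range 8 = Finset.range ((b : ℕ) + 1 + (7 - b)) := by
    congr 1; omega
  rw [e2, Finset.sum_range_add, Finset.sum_range_succ]
  have e3 : ∀ i ∈ Finset.range (b : ℕ), Bf O φ F.up b i * φ (get O (R.getD i []) k) = 0 := by
    intro i hi
    simp [Bf, Finset.mem_range.1 hi]
  rw [Finset.sum_eq_zero e3, zero_add]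
  congr 1
  · simp [Bf]
  · refine Finset.sum_congr rfl fun i _ => ?_
    have e4 : ¬ ((b : ℕ) + 1 + i < b) := by omega
    have e5 : ¬ ((b : ℕ) + 1 + i = b) := by omega
    have e6 : (b : ℕ) + 1 + i - b - 1 = i := by omega
    rw [Bf, if_neg e4, if_neg e5, e6]
    congr 3
    simp [List.getD_eq_getElem?_getD, List.getElem?_drop]

theorem getD_map_range {α : Type} (f : ℕ → α) (l : List α) (d : α) {n i : ℕ} (hi : i < n) :
    ((List.range n).map f ++ l).getD i d = f i := by
  rw [List.getD_eq_getElem?_getD, List.getElem?_append_left (by simpa using hi)]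
  simp [hi]

theorem okR_of_patt {F F' : FrD C} {R : List (List C)} {b c : Fin 8}
    (hp : patt O F F' R b c = false) : okR O F F' R = true := by
  by_contra hn
  rw [Bool.not_eq_true] at hn
  simp [patt, tbl, hn] at hp

theorem patt_low {F F' : FrD C} {R : List (List C)} {b c : Fin 8} (hb : b < 6)
    (hp : patt O F F' R b c = false) : (rowP O F F' R b).getD c true = false := by
  have hb8 : (b : ℕ) < 6 := by exact_mod_cast hb
  have ho := okR_of_patt hp
  rw [patt, tbl, if_pos ho, getD_map_range _ _ _ hb8] at hp
  exact hp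

theorem sum_six (f : ℕ → ℂ) : (∑ c ∈ Finset.range 6, f c) =
    ∑ c : Fin 8, if c < 6 then f c else 0 := by
  have e : ∀ c : Fin 8, (if c < 6 then f c else 0) = if (c : ℕ) < 6 then f c else 0 := by
    intro c
    have : (c < 6) ↔ (c : ℕ) < 6 := Iff.rfl
    simp [this]
  rw [Finset.sum_congr rfl fun c _ => e c, ← Finset.sum_range fun c => if c < 6 then f c else 0]
  simp [Finset.sum_range_succ]

/-- the flat vector of the row `b` in the rows of `P'` -/
theorem frm_row (h : Ev O φ) {F F' : FrD C} {R : List (List C)}
    {P P' : Matrix (Fin 8) (Fin 8) ℂ}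
    (hR : ∀ i j, P i j = ∑ k : Fin 8, φ (get O (R.getD i []) k) * P' k j)
    (ho : okR O F F' R = true) {b : Fin 8} (hb : b < 6) :
    H265.frm P (toB O φ F) b = fun j => ∑ k : Fin 8, φ (get O (beta O F R b) k) * P' k j := by
  have hb8 : (b : ℕ) < 6 := by exact_mod_cast hb
  have hlen : (F.up.getD b []).length ≤ 7 - b := by
    simp only [okR, Bool.and_eq_true, List.all_eq_true, List.mem_range] at ho
    exact Nat.le_of_ble_eq_true (ho.2.1 b hb8)
  funext j
  rw [H265.frm_lt hb, Finset.sum_congr rfl fun i _ => by rw [hR i j, Finset.mul_sum],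
    Finset.sum_comm]
  refine Finset.sum_congr rfl fun k _ => ?_
  rw [ev_beta h F R b hb hlen, Finset.sum_mul]
  exact Finset.sum_congr rfl fun i _ => by ring

theorem toB_low (F : FrD C) {c : Fin 8} (hc : c < 6) (i : Fin 8) :
    toB O φ F c i = Bf O φ F.up c i := by simp [toB, hc]

/-- expansion in the new frame -/
theorem row_coo (h : Ev O φ) {F F' : FrD C} {R : List (List C)}
    {P P' : Matrix (Fin 8) (Fin 8) ℂ} (hP' : H265.Adap P')
    (hR : ∀ i j, P i j = ∑ k : Fin 8, φ (get O (R.getD i []) k) * P' k j)
    (ho : okR O F F' R = true) {b : Fin 8} (hb : b < 6) :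
    H265.frm P (toB O φ F) b ᵥ* (H265.frm P' (toB O φ F'))⁻¹ =
      H265.coo P' (toB O φ F')
        (fun c => φ (get O (solve O F'.up (beta O F R b)).1 c))
        (φ (get O (solve O F'.up (beta O F R b)).2 0))
        (φ (get O (solve O F'.up (beta O F R b)).2 1)) := by
  refine H265.expand_unique (isUnit_det_frm hP' (cst_toB O φ F')) ?_
  have hl : F'.up.length = 6 := by
    simp only [okR, Bool.and_eq_true] at ho
    exact Nat.eq_of_beq_eq_true ho.1
  rw [frm_row h hR ho hb]
  have key : ∀ k : Fin 8, φ (get O (beta O F R b) k) =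
      (∑ c : Fin 8, if c < 6 then
        φ (get O (solve O F'.up (beta O F R b)).1 c) * toB O φ F' c k else 0) +
      if (k : ℕ) < 6 then 0 else φ (get O (solve O F'.up (beta O F R b)).2 (k - 6)) := by
    intro k
    have := ev_solve h F'.up (beta O F R b) k
    rw [hl, sum_six fun c => φ (get O (solve O F'.up (beta O F R b)).1 c) *
      Bf O φ F'.up c k] at this
    rw [this]
    have e : ∀ c : Fin 8, (if c < 6 then φ (get O (solve O F'.up (beta O F R b)).1 c) *
        Bf O φ F'.up c k else 0) = if c < 6 then
        φ (get O (solve O F'.up (beta O F R b)).1 c) * toB O φ F' c k else 0 := by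
      intro c
      split_ifs with hc
      · rw [toB_low F' hc]
      · rfl
    rw [Finset.sum_congr rfl fun c _ => e c]
  refine H265.expand_flat hP' (fun i hi => ?_) ?_ ?_
  · have hi8 : (i : ℕ) < 6 := by exact_mod_cast hi
    rw [key i, if_pos hi8, add_zero]
  · exact key 6
  · exact key 7

theorem rowP_lt {F F' : FrD C} {R : List (List C)} {b c : ℕ} (hc : c < 6)
    (hp : (rowP O F F' R b).getD c true = false) :
    O.isZ (get O (solve O F'.up (beta O F R b)).1 c) = true := by
  rw [rowP, getD_map_range _ _ _ hc] at hp
  simpa using hp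

theorem rowP_six {F F' : FrD C} {R : List (List C)} {b : ℕ}
    (hp : (rowP O F F' R b).getD 6 true = false) :
    O.isZ (get O (solve O F'.up (beta O F R b)).2 0) = true ∧
      O.isZ (get O (solve O F'.up (beta O F R b)).2 1) = true := by
  simpa [rowP, List.range_succ] using hp

theorem rowP_seven {F F' : FrD C} {R : List (List C)} {b : ℕ}
    (hp : (rowP O F F' R b).getD 7 true = false) :
    O.isZ (crs O (get O (solve O F'.up (beta O F R b)).2 0,
      get O (solve O F'.up (beta O F R b)).2 1) F'.kl) = true := by
  simpa [rowP, List.range_succ] using hp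

/-- the cross product kills the last coordinate -/
theorem cross_zero {P : Matrix (Fin 8) (Fin 8) ℂ} {x y α β : ℂ} (h : x * β - y * α = 0)
    (hk : H265.kF P α β ≠ 0) :
    H265.kT P x y - H265.kF P x y * (H265.kT P α β / H265.kF P α β) = 0 := by
  have e : H265.kT P x y * H265.kF P α β - H265.kF P x y * H265.kT P α β = 0 := by
    simp only [H265.kT, H265.kF]
    linear_combination (P 7 6 * P 6 7 - P 6 6 * P 7 7) * h
  field_simp
  linear_combination e

theorem getD_append_six {α : Type} (l m : List α) (hl : l.length = 6) (d : α) (i : ℕ) :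
    (l ++ m).getD (6 + i) d = m.getD i d := by
  rw [List.getD_eq_getElem?_getD, List.getD_eq_getElem?_getD,
    List.getElem?_append_right (by omega)]
  congr 2
  omega

/-- the relation on the two last rows -/
theorem K_rel {F F' : FrD C} {R : List (List C)} (h : Ev O φ)
    {P P' : Matrix (Fin 8) (Fin 8) ℂ}
    (hR : ∀ i j, P i j = ∑ k : Fin 8, φ (get O (R.getD i []) k) * P' k j)
    (ho : okR O F F' R = true) :
    (∀ j, P 6 j = φ (get O (R.getD 6 []) 6) * P' 6 j + φ (get O (R.getD 6 []) 7) * P' 7 j) ∧
    (∀ j, P 7 j = φ (get O (R.getD 7 []) 6) * P' 6 j + φ (get O (R.getD 7 []) 7) * P' 7 j) := by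
  simp only [okR, Bool.and_eq_true, List.all_eq_true, List.mem_range] at ho
  have h6 : ∀ k < 6, φ (get O (R.getD 6 []) k) = 0 := fun k hk => h.isZ _ (ho.2.2 k hk).1
  have h7 : ∀ k < 6, φ (get O (R.getD 7 []) k) = 0 := fun k hk => h.isZ _ (ho.2.2 k hk).2
  constructor
  · intro j
    have := hR 6 j
    rw [Fin.sum_univ_eight] at this
    have e0 := h6 0 (by norm_num)
    have e1 := h6 1 (by norm_num)
    have e2 := h6 2 (by norm_num)
    have e3 := h6 3 (by norm_num)
    have e4 := h6 4 (by norm_num)
    have e5 := h6 5 (by norm_num)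
    simp only [Fin.isValue, Fin.val_zero, Fin.val_one, Fin.val_two, show ((6 : Fin 8) : ℕ) = 6 from rfl,
      show ((3 : Fin 8) : ℕ) = 3 from rfl, show ((4 : Fin 8) : ℕ) = 4 from rfl,
      show ((5 : Fin 8) : ℕ) = 5 from rfl, show ((7 : Fin 8) : ℕ) = 7 from rfl,
      e0, e1, e2, e3, e4, e5] at this
    rw [this]; ring
  · intro j
    have := hR 7 j
    rw [Fin.sum_univ_eight] at this
    have e0 := h7 0 (by norm_num)
    have e1 := h7 1 (by norm_num)
    have e2 := h7 2 (by norm_num)
    have e3 := h7 3 (by norm_num)
    have e4 := h7 4 (by norm_num)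
    have e5 := h7 5 (by norm_num)
    simp only [Fin.isValue, Fin.val_zero, Fin.val_one, Fin.val_two, show ((6 : Fin 8) : ℕ) = 6 from rfl,
      show ((3 : Fin 8) : ℕ) = 3 from rfl, show ((4 : Fin 8) : ℕ) = 4 from rfl,
      show ((5 : Fin 8) : ℕ) = 5 from rfl, show ((7 : Fin 8) : ℕ) = 7 from rfl,
      e0, e1, e2, e3, e4, e5] at this
    rw [this]; ring

theorem klR_ev (h : Ev O φ) (F : FrD C) (R : List (List C)) (k : ℕ) :
    φ (get O (klR O F R) k) = φ F.kl.1 * φ (get O (R.getD 6 []) k) +
      φ F.kl.2 * φ (get O (R.getD 7 []) k) := by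
  rw [klR, ev_get_vm h _ _ 2 k (by simp)]
  simp [Finset.sum_range_succ, get, List.getD_eq_getElem?_getD, List.getElem?_drop]

/-- SOUNDNESS of the pattern -/
theorem patt_sound (h : Ev O φ) {F F' : FrD C} {R : List (List C)}
    {P P' : Matrix (Fin 8) (Fin 8) ℂ} (hP' : H265.Adap P')
    (hR : ∀ i j, P i j = ∑ k : Fin 8, φ (get O (R.getD i []) k) * P' k j)
    (hk : H265.kF P (φ F.kl.1) (φ F.kl.2) ≠ 0)
    (hk' : H265.kF P' (φ F'.kl.1) (φ F'.kl.2) ≠ 0)
    {b c : Fin 8} (hp : patt O F F' R b c = false) :
    (H265.frm P (toB O φ F) b ᵥ* (H265.frm P' (toB O φ F'))⁻¹) c = 0 := by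
  have ho := okR_of_patt hp
  by_cases hb : b < 6
  · have hr := patt_low hb hp
    rw [row_coo h hP' hR ho hb]
    by_cases hc7 : c = 7
    · subst hc7
      have hz := h.isZ _ (rowP_seven hr)
      rw [crs, h.add, h.neg, h.mul, h.mul] at hz
      simp only [H265.coo, if_true, toB_six_six, toB_six_seven]
      exact cross_zero (by linear_combination hz) hk'
    · by_cases hc6 : c = 6
      · subst hc6
        obtain ⟨z0, z1⟩ := rowP_six hr
        have h67 : (6 : Fin 8) ≠ 7 := by decide
        simp [H265.coo, h67, h.isZ _ z0, h.isZ _ z1, H265.kF]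
      · have hc : (c : ℕ) < 6 := by omega
        have hz := h.isZ _ (rowP_lt hc hr)
        simp [H265.coo, hc6, hc7, hz]
  · have hlen : ((List.range 6).map (rowP O F F' R)).length = 6 := by simp
    have hcases : b = 6 ∨ b = 7 := by omega
    rcases hcases with rfl | rfl
    · have hrow : (tbl O F F' R).getD ((6 : Fin 8) : ℕ) [] =
          [false, false, false, false, false, false, true,
            !(O.isZ (crs O (get O (klR O F R) 6, get O (klR O F R) 7) F'.kl))] := by
        rw [tbl, if_pos ho]
        exact getD_append_six _ _ hlen _ 0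
      have hexp : H265.frm P (toB O φ F) 6 =
          (Pi.single 6 1 + (H265.kT P (φ F.kl.1) (φ F.kl.2) / H265.kF P (φ F.kl.1) (φ F.kl.2) -
            H265.kT P' (φ F'.kl.1) (φ F'.kl.2) / H265.kF P' (φ F'.kl.1) (φ F'.kl.2)) •
              Pi.single 7 1 : Fin 8 → ℂ) ᵥ* H265.frm P' (toB O φ F') := by
        rw [Matrix.add_vecMul, Matrix.smul_vecMul, Matrix.single_one_vecMul,
          Matrix.single_one_vecMul]
        show _ = H265.frm P' (toB O φ F') 6 + _ • H265.frm P' (toB O φ F') 7
        rw [H265.frm_six, H265.frm_seven, H265.frm_six]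
        simp only [toB_six_six, toB_six_seven]
        funext j
        simp only [Pi.add_apply, Pi.smul_apply, smul_eq_mul]
        ring
      rw [H265.expand_unique (isUnit_det_frm hP' (cst_toB O φ F')) hexp]
      rw [patt, hrow] at hp
      have h76 : (7 : Fin 8) ≠ 6 := by decide
      by_cases hc7 : c = 7
      · subst hc7
        have hz : O.isZ (crs O (get O (klR O F R) 6, get O (klR O F R) 7) F'.kl) = true := by
          simpa using hp
        have hz' := h.isZ _ hz
        rw [crs, h.add, h.neg, h.mul, h.mul] at hz'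
        obtain ⟨k6, k7⟩ := K_rel h hR ho
        have eF : H265.kF P (φ F.kl.1) (φ F.kl.2) =
            H265.kF P' (φ (get O (klR O F R) 6)) (φ (get O (klR O F R) 7)) := by
          rw [klR_ev h, klR_ev h, H265.kF, H265.kF, k6, k7]; ring
        have eT : H265.kT P (φ F.kl.1) (φ F.kl.2) =
            H265.kT P' (φ (get O (klR O F R) 6)) (φ (get O (klR O F R) 7)) := by
          rw [klR_ev h, klR_ev h, H265.kT, H265.kT, k6, k7]; ring
        have hz2 := cross_zero (P := P') (x := φ (get O (klR O F R) 6))
          (y := φ (get O (klR O F R) 7)) (α := φ F'.kl.1) (β := φ F'.kl.2)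
          (by linear_combination hz') hk'
        rw [← eF, ← eT] at hz2
        simp only [Pi.add_apply, Pi.smul_apply, Pi.single_eq_same, smul_eq_mul, mul_one,
          Pi.single_eq_of_ne h76, zero_add]
        field_simp
        field_simp at hz2
        linear_combination hz2
      · by_cases hc6 : c = 6
        · subst hc6
          simp at hp
        · simp [hc6, hc7]
    · have hrow : (tbl O F F' R).getD ((7 : Fin 8) : ℕ) [] =
          [false, false, false, false, false, false, false, true] := by
        rw [tbl, if_pos ho]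
        exact getD_append_six _ _ hlen _ 1
      have hexp : H265.frm P (toB O φ F) 7 =
          (Pi.single 7 1 : Fin 8 → ℂ) ᵥ* H265.frm P' (toB O φ F') := by
        rw [Matrix.single_one_vecMul]
        show _ = H265.frm P' (toB O φ F') 7
        rw [H265.frm_seven, H265.frm_seven]
      rw [H265.expand_unique (isUnit_det_frm hP' (cst_toB O φ F')) hexp]
      rw [patt, hrow] at hp
      by_cases hc7 : c = 7
      · subst hc7
        simp at hp
      · simp [hc7]

end Vale.Agent.P030.H336
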